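import Vale.Agent.Lib.P045.H27.Degree

/-!
The edge criterion for Ryser's inequality in a form that does not mention truncated
subtraction, and the regular case.
-/

namespace Vale.Agent.Lib.P045.H27

open Finset

variable {V : Type*}

/-- The edge criterion, with the degrees given by a function `d` and all sums taken in `ℚ`. -/
theorem ryser_of_edge_criterion [DecidableEq V] (r : ℕ) (hr : 1 ≤ r) (H : Finset (Finset V))
    (part : V → Fin r) (hpart : ∀ e ∈ H, ∀ i : Fin r, ∃! v, v ∈ e ∧ part v = i)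
    (d : V → ℕ) (hd : ∀ v, d v = (H.filter (fun f => v ∈ f)).card)
    (hedge : ∀ e ∈ H, (∑ v ∈ e, (1 : ℚ) / (d v : ℚ)) * (1 + ∑ v ∈ e, ((d v : ℚ) - 1))
      ≤ (r : ℚ) * ((r : ℚ) - 1)) :
    ∃ M ⊆ H, ∃ C : Finset V, (∀ e ∈ M, ∀ f ∈ M, e ≠ f → Disjoint e f) ∧
      (∀ e ∈ H, ∃ v ∈ C, v ∈ e) ∧ C.card ≤ (r - 1) * M.card := by
  have hdd : d = dg H := funext (fun v => hd v)
  subst hdd
  apply ryser_of_edge_bound r hr H part
  · intro e he i
    obtain ⟨v, hv, -⟩ := hpart e he i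
    exact ⟨v, hv⟩
  · intro e he
    have hcast : ((∑ v ∈ e, (dg H v - 1) : ℕ) : ℚ) = ∑ v ∈ e, ((dg H v : ℚ) - 1) := by
      rw [Nat.cast_sum]
      apply Finset.sum_congr rfl
      intro v hv
      rw [Nat.cast_sub (dg_pos he hv)]
      simp
    rw [hcast]
    exact hedge e he

/-- The regular case: if every vertex of every edge lies in exactly `k` edges and `k + 1 <= r`,
the edge criterion holds. -/
theorem ryser_regular [DecidableEq V] (r : ℕ) (H : Finset (Finset V))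
    (part : V → Fin r) (hpart : ∀ e ∈ H, ∀ i : Fin r, ∃! v, v ∈ e ∧ part v = i)
    (d : V → ℕ) (hd : ∀ v, d v = (H.filter (fun f => v ∈ f)).card)
    (k : ℕ) (hk : k + 1 ≤ r) (hreg : ∀ e ∈ H, ∀ v ∈ e, d v = k) :
    ∃ M ⊆ H, ∃ C : Finset V, (∀ e ∈ M, ∀ f ∈ M, e ≠ f → Disjoint e f) ∧
      (∀ e ∈ H, ∃ v ∈ C, v ∈ e) ∧ C.card ≤ (r - 1) * M.card := by
  have hr : 1 ≤ r := by omega
  apply ryser_of_edge_criterion r hr H part hpart d hd
  intro e he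
  have hcard : e.card = r := edge_card r e part (hpart e he)
  have hrpos : 0 < e.card := by omega
  obtain ⟨v₀, hv₀⟩ := Finset.card_pos.mp hrpos
  have hk1 : 1 ≤ k := by
    have h1 : 1 ≤ d v₀ := by
      rw [hd v₀]
      exact Finset.card_pos.mpr ⟨e, Finset.mem_filter.mpr ⟨he, hv₀⟩⟩
    rw [hreg e he v₀ hv₀] at h1
    exact h1
  have hkq : (1 : ℚ) ≤ (k : ℚ) := by exact_mod_cast hk1
  have hkr : (k : ℚ) + 1 ≤ (r : ℚ) := by exact_mod_cast hk
  have hkpos : (0 : ℚ) < (k : ℚ) := by linarith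
  have hr0 : (0 : ℚ) ≤ (r : ℚ) := by positivity
  have hs1 : ∑ v ∈ e, (1 : ℚ) / (d v : ℚ) = (r : ℚ) * (1 / (k : ℚ)) := by
    rw [Finset.sum_congr rfl (fun v hv => by rw [hreg e he v hv] :
      ∀ v ∈ e, (1 : ℚ) / (d v : ℚ) = 1 / (k : ℚ))]
    rw [Finset.sum_const, hcard, nsmul_eq_mul]
  have hs2 : ∑ v ∈ e, ((d v : ℚ) - 1) = (r : ℚ) * ((k : ℚ) - 1) := by
    rw [Finset.sum_congr rfl (fun v hv => by rw [hreg e he v hv] :
      ∀ v ∈ e, (d v : ℚ) - 1 = (k : ℚ) - 1)]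
    rw [Finset.sum_const, hcard, nsmul_eq_mul]
  rw [hs1, hs2]
  have hkey : (1 + (r : ℚ) * ((k : ℚ) - 1)) / (k : ℚ) ≤ (r : ℚ) - 1 := by
    rw [div_le_iff₀ hkpos]
    nlinarith
  calc (r : ℚ) * (1 / (k : ℚ)) * (1 + (r : ℚ) * ((k : ℚ) - 1))
      = (r : ℚ) * ((1 + (r : ℚ) * ((k : ℚ) - 1)) / (k : ℚ)) := by ring
    _ ≤ (r : ℚ) * ((r : ℚ) - 1) := mul_le_mul_of_nonneg_left hkey hr0

end Vale.Agent.Lib.P045.H27
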