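import Vale.Agent.Lib.P045.H27.Ryser

namespace Vale.Agent.Lib.P045.H27

open Finset

variable {V : Type*}

/-- Chord bound: if `1 <= d v <= D` on `e` then `sum 1 / d v <= |e| - (sum (d v - 1)) / D`. -/
theorem chord_sum (e : Finset V) (d : V → ℕ) (D : ℕ) (hD : 1 ≤ D)
    (hd : ∀ v ∈ e, 1 ≤ d v ∧ d v ≤ D) :
    ∑ v ∈ e, (1 : ℚ) / (d v : ℚ) ≤ (e.card : ℚ) - ((∑ v ∈ e, (d v - 1) : ℕ) : ℚ) / (D : ℚ) := by
  have hDpos : (0 : ℚ) < (D : ℚ) := by exact_mod_cast hD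
  have hterm : ∀ v ∈ e, (1 : ℚ) / (d v : ℚ) ≤ 1 - (((d v - 1 : ℕ) : ℚ)) / (D : ℚ) := by
    intro v hv
    obtain ⟨h1, h2⟩ := hd v hv
    have hdpos : (0 : ℚ) < (d v : ℚ) := by exact_mod_cast h1
    have hcast : (((d v - 1 : ℕ) : ℚ)) = (d v : ℚ) - 1 := by
      rw [Nat.cast_sub h1]
      simp
    rw [hcast, div_le_iff₀ hdpos]
    have h1' : (1 : ℚ) ≤ (d v : ℚ) := by exact_mod_cast h1
    have h2' : (d v : ℚ) ≤ (D : ℚ) := by exact_mod_cast h2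
    have hid : (1 - ((d v : ℚ) - 1) / (D : ℚ)) * (d v : ℚ) - 1
        = ((d v : ℚ) - 1) * ((D : ℚ) - (d v : ℚ)) / (D : ℚ) := by
      field_simp
      ring
    have hnn : (0 : ℚ) ≤ ((d v : ℚ) - 1) * ((D : ℚ) - (d v : ℚ)) / (D : ℚ) :=
      div_nonneg (mul_nonneg (by linarith) (by linarith)) hDpos.le
    linarith
  calc ∑ v ∈ e, (1 : ℚ) / (d v : ℚ)
      ≤ ∑ v ∈ e, (1 - (((d v - 1 : ℕ) : ℚ)) / (D : ℚ)) := Finset.sum_le_sum hterm
    _ = (e.card : ℚ) - ((∑ v ∈ e, (d v - 1) : ℕ) : ℚ) / (D : ℚ) := by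
        rw [Finset.sum_sub_distrib, Finset.sum_const, nsmul_eq_mul, mul_one, ← Finset.sum_div]
        push_cast
        rfl

theorem int_three (r x : ℤ) (hr : 6 ≤ r) :
    0 ≤ x * x - (3 * r - 1) * x + 3 * r * r - 6 * r := by
  rcases lt_or_ge r 7 with h7 | h7
  · have h6 : r = 6 := by omega
    subst h6
    rcases le_or_gt x 8 with hx | hx
    · nlinarith [mul_nonneg (sub_nonneg.mpr hx) (show (0 : ℤ) ≤ 9 - x by linarith)]
    · have hx' : 9 ≤ x := hx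
      nlinarith [mul_nonneg (sub_nonneg.mpr hx') (show (0 : ℤ) ≤ x - 8 by linarith)]
  · nlinarith [sq_nonneg (2 * x - 3 * r + 1),
      mul_nonneg (sub_nonneg.mpr h7) (show (0 : ℤ) ≤ r by linarith)]

theorem int_two (r x : ℤ) (hr : 3 ≤ r) :
    0 ≤ x * x - (2 * r - 1) * x + 2 * r * r - 4 * r := by
  rcases lt_or_ge r 4 with h4 | h4
  · have h3 : r = 3 := by omega
    subst h3
    rcases le_or_gt x 2 with hx | hx
    · nlinarith [mul_nonneg (sub_nonneg.mpr hx) (show (0 : ℤ) ≤ 3 - x by linarith)]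
    · have hx' : 3 ≤ x := hx
      nlinarith [mul_nonneg (sub_nonneg.mpr hx') (show (0 : ℤ) ≤ x - 2 by linarith)]
  · nlinarith [sq_nonneg (2 * x - 2 * r + 1),
      mul_nonneg (sub_nonneg.mpr h4) (show (0 : ℤ) ≤ r by linarith)]

/-- Integer inequality for maximum degree three. -/
theorem quad_three (r x : ℕ) (hr : 6 ≤ r) :
    ((r : ℚ) - (x : ℚ) / 3) * (1 + (x : ℚ)) ≤ (r : ℚ) * ((r : ℚ) - 1) := by
  have hz := int_three (r : ℤ) (x : ℤ) (by exact_mod_cast hr)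
  have hq : (0 : ℚ) ≤ (x : ℚ) * (x : ℚ) - (3 * (r : ℚ) - 1) * (x : ℚ) + 3 * (r : ℚ) * (r : ℚ)
      - 6 * (r : ℚ) := by exact_mod_cast hz
  nlinarith

/-- Integer inequality for maximum degree two. -/
theorem quad_two (r x : ℕ) (hr : 3 ≤ r) :
    ((r : ℚ) - (x : ℚ) / 2) * (1 + (x : ℚ)) ≤ (r : ℚ) * ((r : ℚ) - 1) := by
  have hz := int_two (r : ℤ) (x : ℤ) (by exact_mod_cast hr)
  have hq : (0 : ℚ) ≤ (x : ℚ) * (x : ℚ) - (2 * (r : ℚ) - 1) * (x : ℚ) + 2 * (r : ℚ) * (r : ℚ)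
      - 4 * (r : ℚ) := by exact_mod_cast hz
  nlinarith

/-- In an `r`-partite `r`-uniform hypergraph every edge has exactly `r` vertices. -/
theorem edge_card (r : ℕ) (e : Finset V) (part : V → Fin r)
    (h : ∀ i : Fin r, ∃! v, v ∈ e ∧ part v = i) : e.card = r := by
  have hinj : Set.InjOn part (e : Set V) := by
    intro v hv w hw hvw
    obtain ⟨u, -, hu⟩ := h (part v)
    have h1 := hu v ⟨hv, rfl⟩
    have h2 := hu w ⟨hw, hvw.symm⟩
    rw [h1, h2]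
  have himg : e.image part = Finset.univ := by
    apply Finset.eq_univ_of_forall
    intro i
    obtain ⟨v, ⟨hv, hvi⟩, -⟩ := h i
    exact Finset.mem_image.mpr ⟨v, hv, hvi⟩
  rw [← Finset.card_image_of_injOn hinj, himg, Finset.card_univ, Fintype.card_fin]

/-- Ryser's inequality for `r`-partite `r`-uniform hypergraphs of maximum degree at most three
(`r >= 6`) or at most two (`r >= 3`). -/
theorem ryser_bounded_degree [DecidableEq V] (r : ℕ) (H : Finset (Finset V)) (part : V → Fin r)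
    (hpart : ∀ e ∈ H, ∀ i : Fin r, ∃! v, v ∈ e ∧ part v = i)
    (hdeg : (6 ≤ r ∧ ∀ v : V, (H.filter (fun e => v ∈ e)).card ≤ 3) ∨
            (3 ≤ r ∧ ∀ v : V, (H.filter (fun e => v ∈ e)).card ≤ 2)) :
    ∃ M ⊆ H, ∃ C : Finset V, (∀ e ∈ M, ∀ f ∈ M, e ≠ f → Disjoint e f) ∧
      (∀ e ∈ H, ∃ v ∈ C, v ∈ e) ∧ C.card ≤ (r - 1) * M.card := by
  have hr : 1 ≤ r := by
    rcases hdeg with ⟨h, -⟩ | ⟨h, -⟩ <;> omega
  apply ryser_of_edge_bound r hr H part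
  · intro e he i
    obtain ⟨v, hv, -⟩ := hpart e he i
    exact ⟨v, hv⟩
  · intro e he
    have hcard : e.card = r := edge_card r e part (hpart e he)
    have hx0 : (0 : ℚ) ≤ 1 + ((∑ v ∈ e, (dg H v - 1) : ℕ) : ℚ) := by positivity
    rcases hdeg with ⟨h6, h3⟩ | ⟨h3', h2⟩
    · have hB := chord_sum e (dg H) 3 (by norm_num)
        (fun v hv => ⟨dg_pos he hv, h3 v⟩)
      rw [hcard] at hB
      calc (∑ v ∈ e, (1 : ℚ) / (dg H v : ℚ)) * (1 + ((∑ v ∈ e, (dg H v - 1) : ℕ) : ℚ))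
          ≤ ((r : ℚ) - ((∑ v ∈ e, (dg H v - 1) : ℕ) : ℚ) / ((3 : ℕ) : ℚ))
            * (1 + ((∑ v ∈ e, (dg H v - 1) : ℕ) : ℚ)) := mul_le_mul_of_nonneg_right hB hx0
        _ ≤ (r : ℚ) * ((r : ℚ) - 1) := by
            have := quad_three r (∑ v ∈ e, (dg H v - 1)) h6
            simpa using this
    · have hB := chord_sum e (dg H) 2 (by norm_num)
        (fun v hv => ⟨dg_pos he hv, h2 v⟩)
      rw [hcard] at hB
      calc (∑ v ∈ e, (1 : ℚ) / (dg H v : ℚ)) * (1 + ((∑ v ∈ e, (dg H v - 1) : ℕ) : ℚ))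
          ≤ ((r : ℚ) - ((∑ v ∈ e, (dg H v - 1) : ℕ) : ℚ) / ((2 : ℕ) : ℚ))
            * (1 + ((∑ v ∈ e, (dg H v - 1) : ℕ) : ℚ)) := mul_le_mul_of_nonneg_right hB hx0
        _ ≤ (r : ℚ) * ((r : ℚ) - 1) := by
            have := quad_two r (∑ v ∈ e, (dg H v - 1)) h3'
            simpa using this

end Vale.Agent.Lib.P045.H27
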