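import Mathlib

namespace Vale.Agent.Lib.P045.H27

open Finset

/-- Greedy bound of Caro-Wei type for a finite family with a symmetric conflict relation:
there is a conflict-free subfamily `M` with `sum_e 1 / (1 + c(e)) <= |M|`, where `c(e)` is the
number of members of the family other than `e` that are in conflict with `e`. -/
theorem greedy_family {α : Type*} [DecidableEq α] (R : α → α → Prop) [DecidableRel R]
    (hsymm : ∀ a b, R a b → R b a) :
    ∀ (n : ℕ) (E : Finset α), E.card = n →
      ∃ M ⊆ E, (∀ a ∈ M, ∀ b ∈ M, a ≠ b → ¬ R a b) ∧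
        ∑ e ∈ E, (1 : ℚ) / (1 + ((E.filter (fun f => f ≠ e ∧ R e f)).card : ℚ)) ≤ (M.card : ℚ) := by
  intro n
  induction n using Nat.strong_induction_on with
  | _ n ih =>
    intro E hE
    rcases E.eq_empty_or_nonempty with h0 | hne
    · subst h0
      exact ⟨∅, subset_rfl, by simp, by simp⟩
    · obtain ⟨e₀, he₀, hmin⟩ := Finset.exists_min_image E
        (fun e => (E.filter (fun f => f ≠ e ∧ R e f)).card) hne
      set c : α → ℕ := fun e => (E.filter (fun f => f ≠ e ∧ R e f)).card with hc
      set Nb : Finset α := E.filter (fun f => f ≠ e₀ ∧ R e₀ f) with hNb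
      set N : Finset α := insert e₀ Nb with hN
      have he₀N : e₀ ∉ Nb := by simp [hNb]
      have hNE : N ⊆ E := by
        intro x hx
        rcases Finset.mem_insert.mp hx with rfl | hx
        · exact he₀
        · exact (Finset.mem_filter.mp hx).1
      have hNcard : N.card = c e₀ + 1 := by
        rw [hN, Finset.card_insert_of_notMem he₀N]
      set E' : Finset α := E \ N with hE'
      have hE'card : E'.card < n := by
        rw [← hE]
        apply Finset.card_lt_card
        refine ⟨Finset.sdiff_subset, fun h => ?_⟩
        have := h he₀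
        simp [hE', hN] at this
      obtain ⟨M', hM'E, hM'ind, hM'sum⟩ := ih E'.card hE'card E' rfl
      have he₀M' : e₀ ∉ M' := by
        intro h
        have := hM'E h
        simp [hE', hN] at this
      refine ⟨insert e₀ M', ?_, ?_, ?_⟩
      · intro x hx
        rcases Finset.mem_insert.mp hx with rfl | hx
        · exact he₀
        · exact (Finset.mem_sdiff.mp (hM'E hx)).1
      · have key : ∀ b ∈ M', ¬ R e₀ b := by
          intro b hb hR
          have hbE' := hM'E hb
          have hbE := (Finset.mem_sdiff.mp hbE').1
          have hbN := (Finset.mem_sdiff.mp hbE').2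
          apply hbN
          rw [hN]
          apply Finset.mem_insert_of_mem
          rw [hNb]
          refine Finset.mem_filter.mpr ⟨hbE, ?_, hR⟩
          rintro rfl
          exact he₀M' hb
        intro a ha b hb hab
        rcases Finset.mem_insert.mp ha with ha1 | ha1
        · rcases Finset.mem_insert.mp hb with hb1 | hb1
          · exact absurd (ha1.trans hb1.symm) hab
          · rw [ha1]
            exact key b hb1
        · rcases Finset.mem_insert.mp hb with hb1 | hb1
          · rw [hb1]
            exact fun h => key a ha1 (hsymm _ _ h)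
          · exact hM'ind a ha1 b hb1 hab
      · rw [Finset.card_insert_of_notMem he₀M']
        have hsplit : ∑ e ∈ E, (1 : ℚ) / (1 + (c e : ℚ))
            = ∑ e ∈ N, (1 : ℚ) / (1 + (c e : ℚ)) + ∑ e ∈ E', (1 : ℚ) / (1 + (c e : ℚ)) := by
          rw [hE', add_comm, Finset.sum_sdiff hNE]
        have h1 : ∑ e ∈ N, (1 : ℚ) / (1 + (c e : ℚ)) ≤ 1 := by
          have hle : ∀ e ∈ N, (1 : ℚ) / (1 + (c e : ℚ)) ≤ 1 / (1 + (c e₀ : ℚ)) := by
            intro e he
            have hce : c e₀ ≤ c e := hmin e (hNE he)
            have hce' : (c e₀ : ℚ) ≤ (c e : ℚ) := by exact_mod_cast hce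
            have hpos : (0 : ℚ) < 1 + (c e₀ : ℚ) := by positivity
            exact one_div_le_one_div_of_le hpos (by linarith)
          calc ∑ e ∈ N, (1 : ℚ) / (1 + (c e : ℚ))
              ≤ ∑ _e ∈ N, (1 : ℚ) / (1 + (c e₀ : ℚ)) := Finset.sum_le_sum hle
            _ = (N.card : ℚ) * (1 / (1 + (c e₀ : ℚ))) := by
                rw [Finset.sum_const, nsmul_eq_mul]
            _ = 1 := by
                rw [hNcard]
                have hpos : (0 : ℚ) < 1 + (c e₀ : ℚ) := by positivity
                push_cast
                field_simp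
                ring
        have h2 : ∑ e ∈ E', (1 : ℚ) / (1 + (c e : ℚ))
            ≤ ∑ e ∈ E', (1 : ℚ) / (1 + ((E'.filter (fun f => f ≠ e ∧ R e f)).card : ℚ)) := by
          apply Finset.sum_le_sum
          intro e _
          have hsub : (E'.filter (fun f => f ≠ e ∧ R e f)).card ≤ c e := by
            apply Finset.card_le_card
            intro x hx
            rw [Finset.mem_filter] at hx ⊢
            exact ⟨(Finset.mem_sdiff.mp hx.1).1, hx.2⟩
          have hsub' : ((E'.filter (fun f => f ≠ e ∧ R e f)).card : ℚ) ≤ (c e : ℚ) := by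
            exact_mod_cast hsub
          have hpos : (0 : ℚ) < 1 + ((E'.filter (fun f => f ≠ e ∧ R e f)).card : ℚ) := by
            positivity
          exact one_div_le_one_div_of_le hpos (by linarith)
        have h3 : ∑ e ∈ E, (1 : ℚ) / (1 + (c e : ℚ)) ≤ 1 + (M'.card : ℚ) := by
          rw [hsplit]
          linarith
        push_cast
        linarith

end Vale.Agent.Lib.P045.H27
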