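import Vale.Agent.Lib.P045.H27.Greedy

namespace Vale.Agent.Lib.P045.H27

open Finset

variable {V : Type*} [DecidableEq V]

/-- Number of edges of `H` through `v`. -/
def dg (H : Finset (Finset V)) (v : V) : ℕ := (H.filter (fun e => v ∈ e)).card

theorem dg_pos {H : Finset (Finset V)} {e : Finset V} (he : e ∈ H) {v : V} (hv : v ∈ e) :
    1 ≤ dg H v := by
  unfold dg
  exact Finset.card_pos.mpr ⟨e, Finset.mem_filter.mpr ⟨he, hv⟩⟩

/-- The number of edges meeting `e` (other than `e`) is at most `sum_{v in e} (deg v - 1)`. -/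
theorem conflict_le (H : Finset (Finset V)) {e : Finset V} (he : e ∈ H) :
    (H.filter (fun f => f ≠ e ∧ ¬ Disjoint e f)).card ≤ ∑ v ∈ e, (dg H v - 1) := by
  have hsub : H.filter (fun f => f ≠ e ∧ ¬ Disjoint e f)
      ⊆ e.biUnion (fun v => (H.filter (fun f => v ∈ f)).erase e) := by
    intro f hf
    rw [Finset.mem_filter] at hf
    obtain ⟨hfH, hfe, hnd⟩ := hf
    rw [Finset.not_disjoint_iff] at hnd
    obtain ⟨v, hve, hvf⟩ := hnd
    rw [Finset.mem_biUnion]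
    exact ⟨v, hve, Finset.mem_erase.mpr ⟨hfe, Finset.mem_filter.mpr ⟨hfH, hvf⟩⟩⟩
  calc (H.filter (fun f => f ≠ e ∧ ¬ Disjoint e f)).card
      ≤ (e.biUnion (fun v => (H.filter (fun f => v ∈ f)).erase e)).card := Finset.card_le_card hsub
    _ ≤ ∑ v ∈ e, ((H.filter (fun f => v ∈ f)).erase e).card := Finset.card_biUnion_le
    _ = ∑ v ∈ e, (dg H v - 1) := by
        apply Finset.sum_congr rfl
        intro v hv
        rw [Finset.card_erase_of_mem (Finset.mem_filter.mpr ⟨he, hv⟩)]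
        rfl

/-- Double counting: the number of vertices lying in some edge equals
`sum_e sum_{v in e} 1 / deg v`. -/
theorem card_support (H : Finset (Finset V)) :
    ((H.biUnion id).card : ℚ) = ∑ e ∈ H, ∑ v ∈ e, (1 : ℚ) / (dg H v : ℚ) := by
  have h1 : ((H.biUnion id).card : ℚ)
      = ∑ v ∈ H.biUnion id, ∑ _e ∈ H.filter (fun e => v ∈ e), (1 : ℚ) / (dg H v : ℚ) := by
    rw [Finset.card_eq_sum_ones]
    push_cast
    apply Finset.sum_congr rfl
    intro v hv
    rw [Finset.mem_biUnion] at hv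
    obtain ⟨e, he, hve⟩ := hv
    have hpos : 1 ≤ dg H v := dg_pos he hve
    have hpos' : (0 : ℚ) < (dg H v : ℚ) := by exact_mod_cast hpos
    rw [Finset.sum_const, nsmul_eq_mul]
    change (1 : ℚ) = (dg H v : ℚ) * (1 / (dg H v : ℚ))
    field_simp
  rw [h1]
  apply Finset.sum_comm'
  intro v e
  constructor
  · rintro ⟨_, he⟩
    exact ⟨(Finset.mem_filter.mp he).2, (Finset.mem_filter.mp he).1⟩
  · rintro ⟨hv, he⟩
    exact ⟨Finset.mem_biUnion.mpr ⟨e, he, hv⟩, Finset.mem_filter.mpr ⟨he, hv⟩⟩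

/-- General criterion: if every edge `e` of an `r`-partite `r`-uniform hypergraph satisfies
`(sum_{v in e} 1 / deg v) * (1 + sum_{v in e} (deg v - 1)) <= r (r - 1)`, then there are a matching
`M` and a vertex cover `C` with `|C| <= (r - 1) |M|`. -/
theorem ryser_of_edge_bound (r : ℕ) (hr : 1 ≤ r) (H : Finset (Finset V)) (part : V → Fin r)
    (hpart : ∀ e ∈ H, ∀ i : Fin r, ∃ v, v ∈ e ∧ part v = i)
    (hedge : ∀ e ∈ H, (∑ v ∈ e, (1 : ℚ) / (dg H v : ℚ)) * (1 + ((∑ v ∈ e, (dg H v - 1) : ℕ) : ℚ))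
      ≤ (r : ℚ) * ((r : ℚ) - 1)) :
    ∃ M ⊆ H, ∃ C : Finset V, (∀ e ∈ M, ∀ f ∈ M, e ≠ f → Disjoint e f) ∧
      (∀ e ∈ H, ∃ v ∈ C, v ∈ e) ∧ C.card ≤ (r - 1) * M.card := by
  obtain ⟨M, hMH, hMind, hMsum⟩ := greedy_family (fun e f : Finset V => ¬ Disjoint e f)
    (fun a b h h' => h (disjoint_comm.mp h')) H.card H rfl
  have : Nonempty (Fin r) := ⟨⟨0, hr⟩⟩
  obtain ⟨i₀, -, hi₀⟩ := Finset.exists_min_image (Finset.univ : Finset (Fin r))
    (fun i => ((H.biUnion id).filter (fun v => part v = i)).card) Finset.univ_nonempty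
  refine ⟨M, hMH, (H.biUnion id).filter (fun v => part v = i₀), ?_, ?_, ?_⟩
  · intro e he f hf hef
    by_contra h
    exact hMind e he f hf hef h
  · intro e he
    obtain ⟨v, hve, hvi⟩ := hpart e he i₀
    exact ⟨v, Finset.mem_filter.mpr ⟨Finset.mem_biUnion.mpr ⟨e, he, hve⟩, hvi⟩, hve⟩
  · set C := (H.biUnion id).filter (fun v => part v = i₀) with hC
    have hsumC : (H.biUnion id).card
        = ∑ i : Fin r, ((H.biUnion id).filter (fun v => part v = i)).card :=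
      Finset.card_eq_sum_card_fiberwise (f := part) (s := H.biUnion id) (t := Finset.univ)
        (fun _ _ => Finset.mem_univ _)
    have hrC : r * C.card ≤ (H.biUnion id).card := by
      rw [hsumC]
      calc r * C.card = ∑ _i : Fin r, C.card := by
            rw [Finset.sum_const, Finset.card_univ, Fintype.card_fin, smul_eq_mul]
        _ ≤ ∑ i : Fin r, ((H.biUnion id).filter (fun v => part v = i)).card :=
            Finset.sum_le_sum (fun i _ => hi₀ i (Finset.mem_univ _))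
    have hrC' : (r : ℚ) * (C.card : ℚ) ≤ ((H.biUnion id).card : ℚ) := by exact_mod_cast hrC
    rw [card_support] at hrC'
    have hr0 : (0 : ℚ) < (r : ℚ) := by exact_mod_cast hr
    have hr1 : (0 : ℚ) ≤ (r : ℚ) - 1 := by
      have : (1 : ℚ) ≤ (r : ℚ) := by exact_mod_cast hr
      linarith
    have hper : ∀ e ∈ H, (∑ v ∈ e, (1 : ℚ) / (dg H v : ℚ))
        ≤ (r : ℚ) * ((r : ℚ) - 1) *
          (1 / (1 + ((H.filter (fun f => f ≠ e ∧ ¬ Disjoint e f)).card : ℚ))) := by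
      intro e he
      have hc := conflict_le H he
      have hc' : ((H.filter (fun f => f ≠ e ∧ ¬ Disjoint e f)).card : ℚ)
          ≤ ((∑ v ∈ e, (dg H v - 1) : ℕ) : ℚ) := by exact_mod_cast hc
      have hB0 : (0 : ℚ) ≤ ∑ v ∈ e, (1 : ℚ) / (dg H v : ℚ) :=
        Finset.sum_nonneg (fun v _ => by positivity)
      have hpos : (0 : ℚ) < 1 + ((H.filter (fun f => f ≠ e ∧ ¬ Disjoint e f)).card : ℚ) := by
        positivity
      have h1 : (∑ v ∈ e, (1 : ℚ) / (dg H v : ℚ))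
          * (1 + ((H.filter (fun f => f ≠ e ∧ ¬ Disjoint e f)).card : ℚ))
          ≤ (r : ℚ) * ((r : ℚ) - 1) := by
        refine le_trans ?_ (hedge e he)
        apply mul_le_mul_of_nonneg_left _ hB0
        linarith
      rw [mul_one_div, le_div_iff₀ hpos]
      exact h1
    have hsum : ∑ e ∈ H, ∑ v ∈ e, (1 : ℚ) / (dg H v : ℚ)
        ≤ (r : ℚ) * ((r : ℚ) - 1) * (M.card : ℚ) := by
      calc ∑ e ∈ H, ∑ v ∈ e, (1 : ℚ) / (dg H v : ℚ)
          ≤ ∑ e ∈ H, (r : ℚ) * ((r : ℚ) - 1) *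
            (1 / (1 + ((H.filter (fun f => f ≠ e ∧ ¬ Disjoint e f)).card : ℚ))) :=
            Finset.sum_le_sum hper
        _ = (r : ℚ) * ((r : ℚ) - 1) * ∑ e ∈ H,
            (1 / (1 + ((H.filter (fun f => f ≠ e ∧ ¬ Disjoint e f)).card : ℚ))) := by
            rw [Finset.mul_sum]
        _ ≤ (r : ℚ) * ((r : ℚ) - 1) * (M.card : ℚ) :=
            mul_le_mul_of_nonneg_left hMsum (mul_nonneg hr0.le hr1)
    have hfin : (r : ℚ) * (C.card : ℚ) ≤ (r : ℚ) * (((r : ℚ) - 1) * (M.card : ℚ)) := by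
      calc (r : ℚ) * (C.card : ℚ) ≤ ∑ e ∈ H, ∑ v ∈ e, (1 : ℚ) / (dg H v : ℚ) := hrC'
        _ ≤ (r : ℚ) * ((r : ℚ) - 1) * (M.card : ℚ) := hsum
        _ = (r : ℚ) * (((r : ℚ) - 1) * (M.card : ℚ)) := by ring
    have hfin' : (C.card : ℚ) ≤ ((r : ℚ) - 1) * (M.card : ℚ) := le_of_mul_le_mul_left hfin hr0
    have hcast : (((r - 1 : ℕ) : ℚ)) = (r : ℚ) - 1 := by
      rw [Nat.cast_sub hr]
      simp
    have : ((C.card : ℕ) : ℚ) ≤ (((r - 1) * M.card : ℕ) : ℚ) := by
      push_cast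
      rw [hcast]
      exact hfin'
    exact_mod_cast this

end Vale.Agent.Lib.P045.H27
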